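import Vale.Agent.P032.R2.H62.FinC

/-!
# P032: `H962.Fin2` is true
-/

set_option autoImplicit false
set_option maxRecDepth 100000

namespace Vale.Agent.P032.R2.H62F

open Vale.Agent.P032.R2.H962

instance decAv (i : Fin 5) (V : ℕ) : Decidable (av i V) := by unfold av; infer_instance

theorem lm_mem : ∀ l : Fin 6, lm l ∈ Lm := by decide

theorem un_lt : ∀ l l' : Fin 6, Nat.lor (lm l) (lm l') < 32 := by decide

theorem am_av : ∀ V : Fin 32, ∀ i : Fin 5, av i V.val → Nat.testBit (am V.val) i.val = true := by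
  decide +kernel

theorem am_lt : ∀ V : Fin 32, am V.val < 32 := by decide +kernel

theorem clo_self : ∀ e : Fin 32, ∀ x : Fin 5, Nat.testBit (clo e.val x.val) x.val = true := by
  decide +kernel

theorem clo_cl : ∀ e : Fin 32, ∀ x : Fin 5, ∀ i : Fin 5, Nat.testBit e.val i.val = true →
    (Nat.testBit (clo e.val x.val) i.val = true ↔
      Nat.testBit (clo e.val x.val) (i + 1).val = true) := by
  decide +kernel

theorem all_use {f : ℕ → Bool} (h : Lm.all f = true) (l : Fin 6) : f (lm l) = true :=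
  List.all_eq_true.1 h _ (lm_mem l)

theorem k5_mem : ∀ x : Fin 5, x.val ∈ K5 := by decide

theorem all5 {f : ℕ → Bool} (h : K5.all f = true) (x : Fin 5) : f x.val = true :=
  List.all_eq_true.1 h _ (k5_mem x)

theorem or_use {c r : Bool} (h : (!c || r) = true) (hc : c = true) : r = true := by
  subst hc; simpa using h

theorem chk_all (l : Fin 6) : chk (lm l) = true := by
  fin_cases l
  · exact chk0
  · exact chk1
  · exact chk2
  · exact chk3
  · exact chk4
  · exact chk5

theorem dj_of {a b : ℕ} (h : Nat.land a b = 0) : dj a b = true := by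
  unfold dj; rw [h]; rfl

theorem ok3_of {u : ℕ} (h : pc u ≤ 3) : ok3 u = true := Nat.ble_eq_true_of_le h

theorem sh_of {u v : ℕ} (h : pc u = 3 → pc v = 3 → pc (Nat.land u v) ≤ 1) : sh u v = true := by
  unfold sh
  by_cases h1 : pc u = 3
  · by_cases h2 : pc v = 3
    · have h3 : Nat.ble (pc (Nat.land u v)) 1 = true := Nat.ble_eq_true_of_le (h h1 h2)
      rw [h3]; simp
    · have h3 : Nat.beq (pc v) 3 = false := by
        rw [Bool.eq_false_iff]; intro h4; exact h2 (Nat.eq_of_beq_eq_true h4)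
      rw [h3]; simp
  · have h3 : Nat.beq (pc u) 3 = false := by
      rw [Bool.eq_false_iff]; intro h4; exact h1 (Nat.eq_of_beq_eq_true h4)
    rw [h3]; simp

theorem nin_of {w : Fin 6 → Fin 6} {a : Fin 6} {x : Fin 5} (h : LegK w a x) :
    nin (lm (w a)) (lm (w (a + 3))) x.val = true := by
  unfold LegK inm at h
  unfold nin tb
  rw [Bool.and_eq_true]
  exact ⟨by simpa using h.1, by simpa using h.2⟩

/-- the leaf at a pair of neighbouring words -/
theorem leaf_of {w w' : Fin 6 → Fin 6} (hw : Leg w) (hw' : Leg w') (hN : Nb w w') :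
    leaf (lm (w 0)) (lm (w 1)) (lm (w 2)) (lm (w 3)) (lm (w 4)) (lm (w 5))
      (lm (w' 0)) (lm (w' 1)) (lm (w' 2)) (lm (w' 3)) (lm (w' 4)) (lm (w' 5))
      (Nat.land (am (un w w' 0)) (am (un w w' 3)))
      (Nat.land (am (un w w' 1)) (am (un w w' 4))) = true := by
  have h0 := chk_all (w 0)
  unfold chk at h0
  have h1 := or_use (all_use h0 (w' 0)) (ok3_of (hN.1 0))
  have h2 := or_use (all_use h1 (w 1)) (dj_of (hw 0))
  have h3 := or_use (all_use h2 (w' 1)) (by
    rw [Bool.and_eq_true, Bool.and_eq_true]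
    exact ⟨⟨dj_of (hw' 0), ok3_of (hN.1 1)⟩, sh_of (hN.2 0)⟩)
  have h4 := or_use (all_use h3 (w 2)) (dj_of (hw 1))
  have h5 := or_use (all_use h4 (w' 2)) (by
    rw [Bool.and_eq_true, Bool.and_eq_true]
    exact ⟨⟨dj_of (hw' 1), ok3_of (hN.1 2)⟩, sh_of (hN.2 1)⟩)
  have h6 := or_use (all_use h5 (w 3)) (dj_of (hw 2))
  have h7 := or_use (all_use h6 (w' 3)) (by
    rw [Bool.and_eq_true, Bool.and_eq_true]
    exact ⟨⟨dj_of (hw' 2), ok3_of (hN.1 3)⟩, sh_of (hN.2 2)⟩)
  have h8 := or_use (all_use h7 (w 4)) (dj_of (hw 3))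
  have h9 := or_use (all_use h8 (w' 4)) (by
    rw [Bool.and_eq_true, Bool.and_eq_true]
    exact ⟨⟨dj_of (hw' 3), ok3_of (hN.1 4)⟩, sh_of (hN.2 3)⟩)
  have h10 := or_use (all_use h9 (w 5)) (by
    rw [Bool.and_eq_true]
    exact ⟨dj_of (hw 4), dj_of (hw 5)⟩)
  have h11 := or_use (all_use h10 (w' 5)) (by
    rw [Bool.and_eq_true, Bool.and_eq_true, Bool.and_eq_true, Bool.and_eq_true]
    exact ⟨⟨⟨⟨dj_of (hw' 4), dj_of (hw' 5)⟩, ok3_of (hN.1 5)⟩, sh_of (hN.2 4)⟩, sh_of (hN.2 5)⟩)
  exact h11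

/-- the leaf at one word -/
theorem leaf1_of {w : Fin 6 → Fin 6} (hw : Leg w) :
    leaf1 (lm (w 0)) (lm (w 1)) (lm (w 2)) (lm (w 3)) (lm (w 4)) (lm (w 5)) = true := by
  have h0 := chkw0
  unfold chkw at h0
  have h1 := all_use h0 (w 0)
  have h2 := or_use (all_use h1 (w 1)) (dj_of (hw 0))
  have h3 := or_use (all_use h2 (w 2)) (dj_of (hw 1))
  have h4 := or_use (all_use h3 (w 3)) (dj_of (hw 2))
  have h5 := or_use (all_use h4 (w 4)) (dj_of (hw 3))
  have h6 := or_use (all_use h5 (w 5)) (by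
    rw [Bool.and_eq_true]
    exact ⟨dj_of (hw 4), dj_of (hw 5)⟩)
  exact h6

/-- the closure condition in the form of the table -/
theorem clo_of {V V' : ℕ} (hV : V < 32) (hV' : V' < 32) {x y : Fin 5} (h : Cn V V' x y) :
    Nat.testBit (clo (Nat.land (am V) (am V')) x.val) y.val = true := by
  have he : Nat.land (am V) (am V') < 32 :=
    lt_of_le_of_lt Nat.and_le_left (am_lt ⟨V, hV⟩)
  have hK := h (Finset.univ.filter fun y : Fin 5 =>
      Nat.testBit (clo (Nat.land (am V) (am V')) x.val) y.val = true)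
    (by
      intro i hi hi'
      have h1 : Nat.testBit (am V) i.val = true := am_av ⟨V, hV⟩ i hi
      have h2 : Nat.testBit (am V') i.val = true := am_av ⟨V', hV'⟩ i hi'
      have h3 : Nat.testBit (Nat.land (am V) (am V')) i.val = true := by
        have h4 : Nat.testBit (Nat.land (am V) (am V')) i.val
            = (Nat.testBit (am V) i.val && Nat.testBit (am V') i.val) :=
          Nat.testBit_land (am V) (am V') i.val
        rw [h4, h1, h2]; rfl
      have h6 := clo_cl ⟨Nat.land (am V) (am V'), he⟩ x i h3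
      simp only [Finset.mem_filter, Finset.mem_univ, true_and]
      exact h6)
    (by
      simp only [Finset.mem_filter, Finset.mem_univ, true_and]
      exact clo_self ⟨Nat.land (am V) (am V'), he⟩ x)
  simpa only [Finset.mem_filter, Finset.mem_univ, true_and] using hK

/-- **The finite statement is true.** -/
theorem fin2 : Fin2 := by
  refine ⟨inv, ?_, ?_⟩
  · intro w w' κ κ' hs hs' hN hD
    have h := leaf_of hs.leg hs'.leg hN
    unfold leaf at h
    have d0 := clo_of (un_lt _ _) (un_lt _ _) (hD 0)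
    have d1 := clo_of (un_lt _ _) (un_lt _ _) (hD 1)
    have g1 := or_use (all5 h (κ 0)) (nin_of (hs.kap 0))
    have g2 := or_use (all5 g1 (κ' 0)) (by
      rw [Bool.and_eq_true]; exact ⟨nin_of (hs'.kap 0), d0⟩)
    have g3 := or_use (all5 g2 (κ 1)) (nin_of (hs.kap 1))
    have g4 := or_use (all5 g3 (κ' 1)) (by
      rw [Bool.and_eq_true]; exact ⟨nin_of (hs'.kap 1), d1⟩)
    exact Nat.eq_of_beq_eq_true g4
  · intro w κ x hs hs' hcon
    have h := leaf1_of hs.leg
    unfold leaf1 at h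
    have g1 := or_use (all5 h (κ 0)) (nin_of (hs.kap 0))
    have g2 := or_use (all5 g1 (κ 1)) (nin_of (hs.kap 1))
    have g3 := or_use (all5 g2 x) (nin_of (hs'.kap 1))
    have g4 : Nat.beq (look (lm (w 1)) (lm (w 2)) (lm (w 3)) (lm (w 4)) (lm (w 5)) (lm (w 0))
      (κ 1).val x.val) (look (lm (w 0)) (lm (w 1)) (lm (w 2)) (lm (w 3)) (lm (w 4)) (lm (w 5))
      (κ 0).val (κ 1).val) = true := by
      have h9 : look (lm (w 1)) (lm (w 2)) (lm (w 3)) (lm (w 4)) (lm (w 5)) (lm (w 0))
        (κ 1).val x.val = look (lm (w 0)) (lm (w 1)) (lm (w 2)) (lm (w 3)) (lm (w 4)) (lm (w 5))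
        (κ 0).val (κ 1).val := hcon
      rw [h9]
      exact Nat.beq_refl _
    rw [g4] at g3
    exact absurd g3 (by decide)

end Vale.Agent.P032.R2.H62F
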